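import Mathlib

/-!
Definitions for Seymour's second neighbourhood conjecture, oriented graphs given by an arc relation.
-/

namespace Vale.Agent.Lib.P038

variable {V : Type*}

/-- `adj` is the arc relation of an oriented graph: no loops and no pair of opposite arcs. -/
def IsOriented (adj : V → V → Prop) : Prop :=
  (∀ v, ¬ adj v v) ∧ ∀ u v, adj u v → ¬ adj v u

open Classical in
/-- First out-neighbourhood of `v`. -/
noncomputable def N1 [Fintype V] (adj : V → V → Prop) (v : V) : Finset V :=
  Finset.univ.filter (fun u => adj v u)

open Classical in
/-- Second out-neighbourhood of `v`: vertices at directed distance exactly two from `v`. -/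
noncomputable def N2 [Fintype V] (adj : V → V → Prop) (v : V) : Finset V :=
  Finset.univ.filter (fun w => w ≠ v ∧ ¬ adj v w ∧ ∃ u, adj v u ∧ adj u w)

/-- `a` and `b` are distinct and not joined by an arc: the pair `a b` is an edge of the
missing graph (the complement of the underlying undirected graph). -/
def Missing (adj : V → V → Prop) (a b : V) : Prop :=
  a ≠ b ∧ ¬ adj a b ∧ ¬ adj b a

/-- The missing graph is a star forest: every missing edge has an endpoint whose only missing
edge is this one. Equivalently, every connected component of the complement of the underlying
graph is a star (possibly a single vertex or a single edge). -/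
def IsStarForest (adj : V → V → Prop) : Prop :=
  ∀ a b, Missing adj a b →
    (∀ c, Missing adj a c → c = b) ∨ (∀ c, Missing adj b c → c = a)

end Vale.Agent.Lib.P038
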