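import Mathlib
import Vale.Agent.Lib.P038.Defs

/-!
Weighted feedback orderings for oriented graphs whose missing graph is a star forest.
-/

namespace Vale.Agent.Lib.P038

open Classical

variable {V : Type*}

/-- Sum of `g x y` over all pairs of positions `x` before `y` in a list. -/
def pairSum (g : V → V → ℤ) : List V → ℤ
  | [] => 0
  | x :: xs => (xs.map (g x)).sum + pairSum g xs

theorem pairSum_move_head (g : V → V → ℤ) (S B : List V) (w : V) :
    pairSum g (S ++ w :: B) =
      pairSum g (w :: (S ++ B)) + (S.map (fun s => g s w - g w s)).sum := by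
  induction S with
  | nil => simp
  | cons s S ih =>
    simp only [List.cons_append, pairSum, List.map_cons, List.sum_cons, List.map_append,
      List.sum_append] at ih ⊢
    rw [ih]
    ring

theorem pairSum_move (g : V → V → ℤ) (A S B : List V) (w : V) :
    pairSum g (A ++ (S ++ w :: B)) =
      pairSum g (A ++ w :: (S ++ B)) + (S.map (fun s => g s w - g w s)).sum := by
  induction A with
  | nil => simpa using pairSum_move_head g S B w
  | cons a A ih =>
    simp only [List.cons_append, pairSum, List.map_append, List.map_cons, List.sum_append,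
      List.sum_cons] at ih ⊢
    rw [ih]
    ring

theorem sum_map_le_length (f : V → ℤ) (hf : ∀ s, f s ≤ 1) (S : List V) :
    (S.map f).sum ≤ S.length := by
  induction S with
  | nil => simp
  | cons s S ih =>
    simp only [List.map_cons, List.sum_cons, List.length_cons]
    have := hf s
    push_cast
    linarith

theorem sum_map_le_one (f : V → ℤ) (p : V → Prop) (hp : ∀ a b, p a → p b → a = b)
    (hf : ∀ s, f s ≤ if p s then 1 else 0) (S : List V) (hS : S.Nodup) :
    (S.map f).sum ≤ if ∃ s ∈ S, p s then 1 else 0 := by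
  induction S with
  | nil => simp
  | cons s S ih =>
    have hS' := List.nodup_cons.mp hS
    have ih' := ih hS'.2
    simp only [List.map_cons, List.sum_cons]
    by_cases h : p s
    · have h1 : ¬ ∃ t ∈ S, p t := by
        rintro ⟨t, ht, hpt⟩
        exact hS'.1 (hp _ _ h hpt ▸ ht)
      have h2 : ∃ t ∈ s :: S, p t := ⟨s, List.mem_cons_self, h⟩
      have h3 := hf s
      rw [if_pos h] at h3
      rw [if_neg h1] at ih'
      rw [if_pos h2]
      linarith
    · have h3 := hf s
      rw [if_neg h] at h3
      have h4 : (∃ t ∈ s :: S, p t) ↔ ∃ t ∈ S, p t := by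
        constructor
        · rintro ⟨t, ht, hpt⟩
          rcases List.mem_cons.mp ht with rfl | ht'
          · exact absurd hpt h
          · exact ⟨t, ht', hpt⟩
        · rintro ⟨t, ht, hpt⟩
          exact ⟨t, List.mem_cons_of_mem _ ht, hpt⟩
      simp only [h4]
      linarith

theorem one_le_sum_of_mem (d : V → ℤ) (hd : ∀ s, 0 ≤ d s) (S : List V) (c : V) (hc : c ∈ S)
    (h1 : 1 ≤ d c) : 1 ≤ (S.map d).sum := by
  induction S with
  | nil => simp at hc
  | cons s S ih =>
    simp only [List.map_cons, List.sum_cons]
    have h0 : ∀ S : List V, 0 ≤ (S.map d).sum := by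
      intro S
      induction S with
      | nil => simp
      | cons a S ih' =>
        simp only [List.map_cons, List.sum_cons]
        have := hd a
        linarith
    rcases List.mem_cons.mp hc with rfl | hc'
    · have := h0 S
      linarith
    · have := ih hc'
      have := hd s
      linarith

section Defs

variable (adj : V → V → Prop)

/-- `y` can be reached from `x` in one or two arcs. -/
def Reach (x y : V) : Prop := adj x y ∨ ∃ u, adj x u ∧ adj u y

/-- Every in-neighbour of `a` reaches `b` within two arcs. -/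
def Admissible (a b : V) : Prop := ∀ v, adj v a → Reach adj v b

/-- `a` has at least two missing neighbours. -/
def IsCenter (a : V) : Prop := ∃ b c, b ≠ c ∧ Missing adj a b ∧ Missing adj a c

/-- Arcs added to a star centre towards a leaf, when this is safe in only one direction. -/
def Fake (a b : V) : Prop :=
  Missing adj a b ∧ IsCenter adj a ∧ Admissible adj a b ∧ ¬ Admissible adj b a

/-- `x` is not `f` and is at distance more than two from `f`. -/
def Cut (f x : V) : Prop := x ≠ f ∧ ¬ Reach adj f x

/-- `z` is at distance more than two from `f` and has a harmful missing edge to `N1 f`. -/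
def IsBad (f z : V) : Prop :=
  Cut adj f z ∧ ∃ q, adj f q ∧ Missing adj z q ∧ IsCenter adj z ∧ ¬ Admissible adj z q

/-- `x` is at distance more than two from `f` and not bad. -/
def Good (f x : V) : Prop := Cut adj f x ∧ ¬ IsBad adj f x

/-- Integer weight of an ordered pair. -/
noncomputable def wt [Fintype V] (x y : V) : ℤ :=
  if adj x y then (Fintype.card V : ℤ) + 1 else if Fake adj x y then (Fintype.card V : ℤ) else 0

/-- Tie-breaking weight. -/
noncomputable def pot (f x y : V) : ℤ := if Cut adj f y ∧ ¬ Cut adj f x then 1 else 0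

/-- Signed arc indicator. -/
noncomputable def rho (w s : V) : ℤ := (if adj s w then 1 else 0) - (if adj w s then 1 else 0)

/-- Indicator of `Fake`. -/
noncomputable def inFake (x y : V) : ℤ := if Fake adj x y then 1 else 0

/-- Optimal list ending in `f`. -/
structure Opt [Fintype V] (L : List V) (f : V) : Prop where
  nodup : L.Nodup
  last : ∃ P, L = P ++ [f]
  best : ∀ L', L'.Perm L → pairSum (wt adj) L' ≤ pairSum (wt adj) L
  tie : ∀ L' P', L'.Perm L → L' = P' ++ [f] → pairSum (wt adj) L' = pairSum (wt adj) L →
    pairSum (pot adj f) L ≤ pairSum (pot adj f) L'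

/-- The witness set. -/
structure WitSpec [Fintype V] (f : V) (Wit : Finset V) : Prop where
  sub : Wit ⊆ N2 adj f
  miss : ∀ x ∈ Wit, Missing adj f x
  noarc : ∀ x ∈ Wit, ∀ w, Good adj f w → ¬ adj x w

/-- The function whose sum over all vertices we control. -/
noncomputable def PHI [Fintype V] (f : V) (Wit : Finset V) (s : V) : ℤ :=
  (if s ∈ N2 adj f then 1 else 0) - (if s ∈ Wit then 1 else 0)
    + (if s ∈ Finset.univ.filter (IsBad adj f) then 1 else 0)
    - (if s ∈ N1 adj f then 1 else 0)

end Defs

variable {adj : V → V → Prop}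

theorem Missing.symm' {a b : V} (h : Missing adj a b) : Missing adj b a :=
  ⟨h.1.symm, h.2.2, h.2.1⟩

theorem center_leaf (hsf : IsStarForest adj) {a b : V} (hc : IsCenter adj a)
    (hm : Missing adj a b) : ∀ c, Missing adj b c → c = a := by
  rcases hsf a b hm with h | h
  · obtain ⟨x, y, hxy, hx, hy⟩ := hc
    exact absurd ((h x hx).trans (h y hy).symm) hxy
  · exact h

theorem not_center_of_leaf (hsf : IsStarForest adj) {a b : V} (hc : IsCenter adj a)
    (hm : Missing adj a b) : ¬ IsCenter adj b := by
  rintro ⟨x, y, hxy, hx, hy⟩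
  have h := center_leaf hsf hc hm
  exact hxy ((h x hx).trans (h y hy).symm)

theorem exists_witness [Fintype V] (hor : IsOriented adj) (hsf : IsStarForest adj) (f : V) :
    ∃ Wit : Finset V, Wit.card = (Finset.univ.filter (IsBad adj f)).card ∧
      WitSpec adj f Wit := by
  have key : ∀ z, IsBad adj f z → ∃ q v, adj f q ∧ (∀ c, Missing adj q c → c = z) ∧
      Missing adj z q ∧ adj v z ∧ ¬ Reach adj v q := by
    rintro z ⟨-, q, hfq, hzq, hcz, hadm⟩
    have hleaf := center_leaf hsf hcz hzq
    simp only [Admissible, not_forall] at hadm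
    obtain ⟨v, hvz, hvq⟩ := hadm
    exact ⟨q, v, hfq, hleaf, hzq, hvz, hvq⟩
  choose! q v hq using key
  -- basic facts on a bad vertex
  have fact : ∀ z, IsBad adj f z → Missing adj f (v z) ∧ adj (q z) (v z) := by
    intro z hz
    obtain ⟨hfq, hleaf, hzq, hvz, hvq⟩ := hq z hz
    have hcut := hz.1
    have h1 : v z ≠ f := by
      intro h
      rw [h] at hvq
      exact hvq (Or.inl hfq)
    have h2 : ¬ adj (v z) f := fun h => hvq (Or.inr ⟨f, h, hfq⟩)
    have h3 : ¬ adj f (v z) := fun h => hcut.2 (Or.inr ⟨v z, h, hvz⟩)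
    refine ⟨⟨h1.symm, h3, h2⟩, ?_⟩
    by_contra h4
    have h5 : ¬ adj (v z) (q z) := fun h => hvq (Or.inl h)
    have h6 : q z ≠ v z := by
      intro h
      rw [← h] at hvz
      exact hzq.2.2 hvz
    have h7 : v z = z := hleaf _ ⟨h6, h4, h5⟩
    rw [h7] at hvz
    exact hor.1 z hvz
  refine ⟨(Finset.univ.filter (IsBad adj f)).image v, ?_, ?_, ?_, ?_⟩
  · apply Finset.card_image_of_injOn
    intro z1 hz1 z2 hz2 hv
    have hz1 : IsBad adj f z1 := by simpa using hz1
    have hz2 : IsBad adj f z2 := by simpa using hz2
    by_contra hne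
    obtain ⟨hfq1, hleaf1, hzq1, hvz1, hvq1⟩ := hq z1 hz1
    obtain ⟨hfq2, hleaf2, hzq2, hvz2, hvq2⟩ := hq z2 hz2
    have hcut2 := hz2.1
    have h1 : q z1 ≠ z2 := by
      intro h
      rw [h] at hfq1
      exact hcut2.2 (Or.inl hfq1)
    have h2 : ¬ adj (q z1) z2 := fun h => hcut2.2 (Or.inr ⟨q z1, hfq1, h⟩)
    have h3 : ¬ adj z2 (q z1) := by
      intro h
      apply hvq1
      right
      exact ⟨z2, by rw [hv]; exact hvz2, h⟩
    exact hne (hleaf1 _ ⟨h1, h2, h3⟩).symm
  · intro x hx
    obtain ⟨z, hz, rfl⟩ := Finset.mem_image.mp hx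
    simp only [Finset.mem_filter, Finset.mem_univ, true_and] at hz
    obtain ⟨hfq, -, -, -, -⟩ := hq z hz
    obtain ⟨h1, h2⟩ := fact z hz
    simp only [N2, Finset.mem_filter, Finset.mem_univ, true_and]
    exact ⟨h1.1.symm, h1.2.1, q z, hfq, h2⟩
  · intro x hx
    obtain ⟨z, hz, rfl⟩ := Finset.mem_image.mp hx
    simp only [Finset.mem_filter, Finset.mem_univ, true_and] at hz
    exact (fact z hz).1
  · intro x hx w hw hvw
    obtain ⟨z, hz, rfl⟩ := Finset.mem_image.mp hx
    simp only [Finset.mem_filter, Finset.mem_univ, true_and] at hz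
    obtain ⟨hfq, hleaf, hzq, hvz, hvq⟩ := hq z hz
    have h1 : q z ≠ w := by
      intro h
      rw [h] at hfq
      exact hw.1.2 (Or.inl hfq)
    have h2 : ¬ adj (q z) w := fun h => hw.1.2 (Or.inr ⟨q z, hfq, h⟩)
    have h3 : ¬ adj w (q z) := fun h => hvq (Or.inr ⟨w, hvw, h⟩)
    have h4 : w = z := hleaf _ ⟨h1, h2, h3⟩
    rw [h4] at hw
    exact hw.2 hz

theorem wt_sub [Fintype V] (hor : IsOriented adj) (s w : V) :
    wt adj s w - wt adj w s =
      ((Fintype.card V : ℤ) + 1) * rho adj w s
        + (Fintype.card V : ℤ) * (inFake adj s w - inFake adj w s) := by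
  by_cases h1 : adj s w
  · have h2 : ¬ adj w s := hor.2 _ _ h1
    have h3 : ¬ Fake adj s w := fun h => h.1.2.1 h1
    have h4 : ¬ Fake adj w s := fun h => h.1.2.2 h1
    simp [wt, rho, inFake, h1, h2, h3, h4]
  · by_cases h2 : adj w s
    · have h3 : ¬ Fake adj s w := fun h => h.1.2.2 h2
      have h4 : ¬ Fake adj w s := fun h => h.1.2.1 h2
      simp [wt, rho, inFake, h1, h2, h3, h4]
    · simp only [wt, rho, inFake, h1, h2, if_false]
      split_ifs <;> ring

theorem sum_wt_eq [Fintype V] (hor : IsOriented adj) (S : List V) (w : V) :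
    (S.map (fun s => wt adj s w - wt adj w s)).sum =
      ((Fintype.card V : ℤ) + 1) * (S.map (rho adj w)).sum
        + (Fintype.card V : ℤ) *
          ((S.map (fun s => inFake adj s w)).sum - (S.map (fun s => inFake adj w s)).sum) := by
  induction S with
  | nil => simp
  | cons s S ih =>
    simp only [List.map_cons, List.sum_cons]
    rw [ih, wt_sub hor]
    ring

theorem center_bound [Fintype V] (hor : IsOriented adj) (hsf : IsStarForest adj) {S : List V}
    {w : V} (hS : S.Nodup) (hc : IsCenter adj w)
    (h0 : 0 ≤ (S.map (fun s => wt adj s w - wt adj w s)).sum) :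
    (S.map (fun s => inFake adj w s)).sum ≤ (S.map (rho adj w)).sum := by
  rw [sum_wt_eq hor] at h0
  have hK : (S.map (fun s => inFake adj s w)).sum = 0 := by
    have : (fun s => inFake adj s w) = fun _ => (0 : ℤ) := by
      funext s
      have : ¬ Fake adj s w := fun h => not_center_of_leaf hsf h.2.1 h.1 hc
      simp [inFake, this]
    rw [this]
    simp
  have hM : (S.map (fun s => inFake adj w s)).sum ≤ (Fintype.card V : ℤ) := by
    have h1 := sum_map_le_length (fun s => inFake adj w s)
      (fun s => by simp only [inFake]; split_ifs <;> simp) S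
    have h2 : S.length ≤ Fintype.card V := hS.length_le_card
    have h3 : (S.length : ℤ) ≤ Fintype.card V := by exact_mod_cast h2
    linarith
  rw [hK] at h0
  by_contra hlt
  push Not at hlt
  have hcard : (0 : ℤ) ≤ Fintype.card V := by positivity
  nlinarith

theorem noncenter_bound [Fintype V] (hor : IsOriented adj) {S : List V}
    {w : V} (hS : S.Nodup) (hc : ¬ IsCenter adj w)
    (h0 : 0 ≤ (S.map (fun s => wt adj s w - wt adj w s)).sum) :
    0 ≤ (S.map (rho adj w)).sum := by
  rw [sum_wt_eq hor] at h0
  have hM : (S.map (fun s => inFake adj w s)).sum = 0 := by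
    have : (fun s => inFake adj w s) = fun _ => (0 : ℤ) := by
      funext s
      have : ¬ Fake adj w s := fun h => hc h.2.1
      simp [inFake, this]
    rw [this]
    simp
  have hK : (S.map (fun s => inFake adj s w)).sum ≤ 1 := by
    have h1 := sum_map_le_one (fun s => inFake adj s w) (fun s => Missing adj s w)
      (by
        intro a b ha hb
        by_contra hne
        exact hc ⟨a, b, hne, Missing.symm' ha, Missing.symm' hb⟩)
      (by
        intro s
        by_cases h : Fake adj s w
        · simp [inFake, h, h.1]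
        · simp only [inFake, h, if_false]
          split_ifs <;> simp) S hS
    refine h1.trans ?_
    split_ifs <;> simp
  rw [hM] at h0
  by_contra hlt
  push Not at hlt
  have hcard : (0 : ℤ) ≤ Fintype.card V := by positivity
  nlinarith

end Vale.Agent.Lib.P038
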