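import Mathlib
import Vale.Agent.Lib.P038.Defs

/-!
Kemperman's theorem in the form: if `A` and `C` are finite subsets of a group with a common element,
then `|A * C⁻¹| ≥ |A ∪ C|`. Proof by a pair of e-transforms. Consequence: Seymour's second
neighbourhood conjecture for vertex-transitive oriented graphs.
-/

namespace Vale.Agent.Lib.P038

open Classical

section Kemperman

variable {G : Type*} [Group G]

theorem card_left_le {A C D : Finset G} {x : G} (hxC : x ∈ C)
    (hD : ∀ a ∈ A, ∀ c ∈ C, a * c⁻¹ ∈ D) : A.card ≤ D.card := by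
  refine Finset.card_le_card_of_injOn (fun a => a * x⁻¹) (fun a ha => hD a ha x hxC) ?_
  intro a _ b _ h
  exact mul_right_cancel h

theorem card_right_le {A C D : Finset G} {x : G} (hxA : x ∈ A)
    (hD : ∀ a ∈ A, ∀ c ∈ C, a * c⁻¹ ∈ D) : C.card ≤ D.card := by
  refine Finset.card_le_card_of_injOn (fun c => x * c⁻¹) (fun c hc => hD x hxA c hc) ?_
  intro a _ b _ h
  exact inv_injective (mul_left_cancel h)

theorem kemperman_aux (D : Finset G) : ∀ (n m : ℕ) (A C : Finset G) (x : G), x ∈ A → x ∈ C →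
    (∀ a ∈ A, ∀ c ∈ C, a * c⁻¹ ∈ D) → 2 * D.card ≤ (A ∪ C).card + n →
    D.card + A.card ≤ C.card + m → (A ∪ C).card ≤ D.card := by
  intro n
  induction n using Nat.strong_induction_on with
  | _ n IHn =>
  intro m
  induction m using Nat.strong_induction_on with
  | _ m IHm =>
  intro A C x hxA hxC hD hn hm
  have hA := card_left_le hxC hD
  have hC := card_right_le hxA hD
  by_cases hcase : ∃ a ∈ A, ∃ c ∈ C, a * x⁻¹ = x * c⁻¹ ∧ a ∉ C
  · obtain ⟨a, ha, c, hc, hac, haC⟩ := hcase
    set g : G := x⁻¹ * a with hg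
    have hinj : Function.Injective (fun y : G => y * g) := mul_left_injective g
    set Ag := A.image (fun y => y * g) with hAg
    set Cg := C.image (fun y => y * g) with hCg
    have hxg : x * g = a := by rw [hg]; group
    have hcg : c * g = x := by
      have h1 : c * x⁻¹ = x * a⁻¹ := by
        have h2 := congrArg (fun t : G => t⁻¹) hac
        simp only [mul_inv_rev, inv_inv] at h2
        exact h2.symm
      calc c * g = c * x⁻¹ * a := by rw [hg]; group
        _ = x * a⁻¹ * a := by rw [h1]
        _ = x := by group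
    have haAg : a ∈ Ag := Finset.mem_image.mpr ⟨x, hxA, hxg⟩
    have haCg : a ∈ Cg := Finset.mem_image.mpr ⟨x, hxC, hxg⟩
    have hxCg : x ∈ Cg := Finset.mem_image.mpr ⟨c, hc, hcg⟩
    -- the right transform
    have hD1 : ∀ u ∈ A ∪ Ag, ∀ v ∈ C ∩ Cg, u * v⁻¹ ∈ D := by
      intro u hu v hv
      obtain ⟨hv1, hv2⟩ := Finset.mem_inter.mp hv
      rcases Finset.mem_union.mp hu with hu | hu
      · exact hD u hu v hv1
      · obtain ⟨t, ht, rfl⟩ := Finset.mem_image.mp hu
        obtain ⟨w, hw, rfl⟩ := Finset.mem_image.mp hv2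
        have : t * g * (w * g)⁻¹ = t * w⁻¹ := by group
        rw [this]
        exact hD t ht w hw
    -- the left transform
    have hD2 : ∀ u ∈ A ∩ Ag, ∀ v ∈ C ∪ Cg, u * v⁻¹ ∈ D := by
      intro u hu v hv
      obtain ⟨hu1, hu2⟩ := Finset.mem_inter.mp hu
      rcases Finset.mem_union.mp hv with hv | hv
      · exact hD u hu1 v hv
      · obtain ⟨t, ht, rfl⟩ := Finset.mem_image.mp hu2
        obtain ⟨w, hw, rfl⟩ := Finset.mem_image.mp hv
        have : t * g * (w * g)⁻¹ = t * w⁻¹ := by group
        rw [this]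
        exact hD t ht w hw
    have hx1 : x ∈ A ∪ Ag := Finset.mem_union_left _ hxA
    have hx2 : x ∈ C ∩ Cg := Finset.mem_inter.mpr ⟨hxC, hxCg⟩
    have ha1 : a ∈ A ∩ Ag := Finset.mem_inter.mpr ⟨ha, haAg⟩
    have ha2 : a ∈ C ∪ Cg := Finset.mem_union_right _ haCg
    -- sizes
    have hV : (Ag ∪ Cg).card = (A ∪ C).card := by
      rw [hAg, hCg, ← Finset.image_union]
      exact Finset.card_image_of_injective _ hinj
    have hkey : (A ∪ C).card + (Ag ∪ Cg).card ≤
        ((A ∪ Ag) ∪ (C ∩ Cg)).card + ((A ∩ Ag) ∪ (C ∪ Cg)).card := by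
      have h1 := Finset.card_union_add_card_inter (A ∪ C) (Ag ∪ Cg)
      have h2 := Finset.card_union_add_card_inter ((A ∪ Ag) ∪ (C ∩ Cg)) ((A ∩ Ag) ∪ (C ∪ Cg))
      have h3 : ((A ∪ C) ∪ (Ag ∪ Cg)) ⊆ (((A ∪ Ag) ∪ (C ∩ Cg)) ∪ ((A ∩ Ag) ∪ (C ∪ Cg))) := by
        intro y hy
        simp only [Finset.mem_union, Finset.mem_inter] at hy ⊢
        tauto
      have h4 : ((A ∪ C) ∩ (Ag ∪ Cg)) ⊆ (((A ∪ Ag) ∪ (C ∩ Cg)) ∩ ((A ∩ Ag) ∪ (C ∪ Cg))) := by
        intro y hy
        simp only [Finset.mem_union, Finset.mem_inter] at hy ⊢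
        tauto
      have h5 := Finset.card_le_card h3
      have h6 := Finset.card_le_card h4
      omega
    by_cases hR : (A ∪ C).card < ((A ∪ Ag) ∪ (C ∩ Cg)).card
    · -- the right transform strictly increases the union
      have hA1 := card_left_le hx2 hD1
      have hC1 := card_right_le hx1 hD1
      have hU1 : ((A ∪ Ag) ∪ (C ∩ Cg)).card ≤ (A ∪ Ag).card + (C ∩ Cg).card :=
        Finset.card_union_le _ _
      have hn0 : 0 < n := by omega
      have := IHn (n - 1) (by omega) ((D.card + (A ∪ Ag).card)) (A ∪ Ag) (C ∩ Cg) x hx1 hx2 hD1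
        (by omega) (by omega)
      omega
    · -- otherwise the left transform does not decrease it, and `C` grows
      have hL : (A ∪ C).card ≤ ((A ∩ Ag) ∪ (C ∪ Cg)).card := by omega
      have hA2 : (A ∩ Ag).card ≤ A.card := Finset.card_le_card Finset.inter_subset_left
      have hC2 : C.card < (C ∪ Cg).card := by
        refine Finset.card_lt_card ⟨Finset.subset_union_left, ?_⟩
        intro h
        exact haC (h ha2)
      have hpos : 0 < A.card := Finset.card_pos.mpr ⟨x, hxA⟩
      have hm0 : 0 < m := by omega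
      have := IHm (m - 1) (by omega) (A ∩ Ag) (C ∪ Cg) a ha1 ha2 hD2 (by omega) (by omega)
      omega
  · -- direct bound
    push_neg at hcase
    set I1 := A.image (fun y => y * x⁻¹) with hI1
    set I2 := C.image (fun y => x * y⁻¹) with hI2
    have hc1 : I1.card = A.card := Finset.card_image_of_injective _ (mul_left_injective _)
    have hc2 : I2.card = C.card := Finset.card_image_of_injective _
      (fun a b h => inv_injective (mul_left_cancel h))
    have hsub : I1 ∪ I2 ⊆ D := by
      intro y hy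
      rcases Finset.mem_union.mp hy with hy | hy
      · obtain ⟨a, ha, rfl⟩ := Finset.mem_image.mp hy
        exact hD a ha x hxC
      · obtain ⟨c, hc, rfl⟩ := Finset.mem_image.mp hy
        exact hD x hxA c hc
    have hinter : (I1 ∩ I2).card ≤ (A ∩ C).card := by
      refine Finset.card_le_card_of_injOn (fun y => y * x) ?_ ?_
      · intro y hy
        obtain ⟨hy1, hy2⟩ := Finset.mem_inter.mp hy
        obtain ⟨a, ha, rfl⟩ := Finset.mem_image.mp hy1
        obtain ⟨c, hc, hcy⟩ := Finset.mem_image.mp hy2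
        have h1 : a ∈ C := hcase a ha c hc hcy.symm
        simpa using Finset.mem_inter.mpr ⟨ha, h1⟩
      · intro y _ z _ h
        exact mul_right_cancel h
    have h1 := Finset.card_union_add_card_inter I1 I2
    have h2 := Finset.card_union_add_card_inter A C
    have h3 := Finset.card_le_card hsub
    omega

/-- **Kemperman's theorem**: if `A` and `C` share an element, `|A * C⁻¹| ≥ |A ∪ C|`, stated for any
`D` containing all the quotients `a * c⁻¹`. -/
theorem kemperman {A C D : Finset G} {x : G} (hxA : x ∈ A) (hxC : x ∈ C)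
    (hD : ∀ a ∈ A, ∀ c ∈ C, a * c⁻¹ ∈ D) : (A ∪ C).card ≤ D.card :=
  kemperman_aux D (2 * D.card) (D.card + A.card) A C x hxA hxC hD (by omega) (by omega)

end Kemperman

end Vale.Agent.Lib.P038
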