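import Mathlib
import Vale.Agent.Lib.P038.Core

/-!
The summation argument for oriented graphs whose missing graph is a star forest.
-/

namespace Vale.Agent.Lib.P038

open Classical

variable {V : Type*} {adj : V → V → Prop}

theorem sum_map_sub' (g h : V → ℤ) (T : List V) :
    (T.map (fun s => g s - h s)).sum = (T.map g).sum - (T.map h).sum := by
  induction T with
  | nil => simp
  | cons s T ih =>
    simp only [List.map_cons, List.sum_cons, ih]
    ring

theorem sum_map_add' (g h : V → ℤ) (T : List V) :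
    (T.map (fun s => g s + h s)).sum = (T.map g).sum + (T.map h).sum := by
  induction T with
  | nil => simp
  | cons s T ih =>
    simp only [List.map_cons, List.sum_cons, ih]
    ring

section Phi

variable [Fintype V] {f : V} {Wit : Finset V}

theorem mem_N1 {s : V} : s ∈ N1 adj f ↔ adj f s := by simp [N1]

theorem mem_N2 {s : V} : s ∈ N2 adj f ↔ s ≠ f ∧ ¬ adj f s ∧ ∃ u, adj f u ∧ adj u s := by
  simp [N2]

theorem mem_Bad {s : V} : s ∈ Finset.univ.filter (IsBad adj f) ↔ IsBad adj f s := by simp

theorem phi_n1 (hW : WitSpec adj f Wit) {s : V} (h : adj f s) : PHI adj f Wit s = -1 := by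
  have h1 : s ∉ N2 adj f := fun hs => (mem_N2.mp hs).2.1 h
  have h2 : s ∉ Wit := fun hs => h1 (hW.sub hs)
  have h3 : s ∉ Finset.univ.filter (IsBad adj f) := fun hs => (mem_Bad.mp hs).1.2 (Or.inl h)
  have h4 : s ∈ N1 adj f := mem_N1.mpr h
  simp [PHI, h1, h2, h3, h4]

theorem phi_wit (hW : WitSpec adj f Wit) {s : V} (h : s ∈ Wit) : PHI adj f Wit s = 0 := by
  have h1 : s ∈ N2 adj f := hW.sub h
  have h1' := mem_N2.mp h1
  have h3 : s ∉ Finset.univ.filter (IsBad adj f) := fun hs =>
    (mem_Bad.mp hs).1.2 (Or.inr h1'.2.2)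
  have h4 : s ∉ N1 adj f := fun hs => h1'.2.1 (mem_N1.mp hs)
  simp [PHI, h, h1, h3, h4]

theorem phi_good (hW : WitSpec adj f Wit) {s : V} (h : Good adj f s) : PHI adj f Wit s = 0 := by
  have h1 : s ∉ N2 adj f := fun hs => h.1.2 (Or.inr (mem_N2.mp hs).2.2)
  have h2 : s ∉ Wit := fun hs => h1 (hW.sub hs)
  have h3 : s ∉ Finset.univ.filter (IsBad adj f) := fun hs => h.2 (mem_Bad.mp hs)
  have h4 : s ∉ N1 adj f := fun hs => h.1.2 (Or.inl (mem_N1.mp hs))
  simp [PHI, h1, h2, h3, h4]

theorem phi_f (hor : IsOriented adj) (hW : WitSpec adj f Wit) : PHI adj f Wit f = 0 := by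
  have h1 : f ∉ N2 adj f := fun hs => (mem_N2.mp hs).1 rfl
  have h2 : f ∉ Wit := fun hs => h1 (hW.sub hs)
  have h3 : f ∉ Finset.univ.filter (IsBad adj f) := fun hs => (mem_Bad.mp hs).1.1 rfl
  have h4 : f ∉ N1 adj f := fun hs => hor.1 f (mem_N1.mp hs)
  simp [PHI, h1, h2, h3, h4]

theorem phi_rest (hW : WitSpec adj f Wit) {s : V} (hsf : s ≠ f) (h1 : ¬ adj f s) (h2 : s ∉ Wit)
    (h3 : ¬ Good adj f s) : PHI adj f Wit s = 1 := by
  have h4 : s ∉ N1 adj f := fun hs => h1 (mem_N1.mp hs)
  by_cases hr : Reach adj f s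
  · have h5 : ∃ u, adj f u ∧ adj u s := hr.resolve_left h1
    have h6 : s ∈ N2 adj f := mem_N2.mpr ⟨hsf, h1, h5⟩
    have h7 : s ∉ Finset.univ.filter (IsBad adj f) := fun hs => (mem_Bad.mp hs).1.2 hr
    simp [PHI, h2, h4, h6, h7]
  · have hc : Cut adj f s := ⟨hsf, hr⟩
    have h6 : s ∉ N2 adj f := fun hs => hr (Or.inr (mem_N2.mp hs).2.2)
    have h7 : s ∈ Finset.univ.filter (IsBad adj f) := by
      apply mem_Bad.mpr
      by_contra hb
      exact h3 ⟨hc, hb⟩
    simp [PHI, h2, h4, h6, h7]

end Phi

theorem rho_le_one (w s : V) : rho adj w s ≤ 1 := by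
  simp only [rho]
  split_ifs <;> simp

theorem rho_nonpos {w s : V} (h : ¬ adj s w) : rho adj w s ≤ 0 := by
  simp only [rho, h, if_false]
  split_ifs <;> simp

theorem rho_of_out (hor : IsOriented adj) {w s : V} (h : adj w s) : rho adj w s = -1 := by
  have h' : ¬ adj s w := hor.2 _ _ h
  simp [rho, h, h']

theorem rho_of_missing {w s : V} (h : Missing adj w s) : rho adj w s = 0 := by
  simp [rho, h.2.1, h.2.2]

theorem inFake_nonneg (x y : V) : 0 ≤ inFake adj x y := by
  simp only [inFake]
  split_ifs <;> simp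

section Star

variable [Fintype V] {f : V} {Wit : Finset V} {L : List V}

theorem Opt.h0 (hopt : Opt adj L f) {A S B : List V} {w : V} (hL : L = A ++ (S ++ w :: B)) :
    0 ≤ (S.map (fun s => wt adj s w - wt adj w s)).sum := by
  have hperm : (A ++ w :: (S ++ B)).Perm L := by
    rw [hL]
    exact (List.perm_middle.symm).append_left A
  have h1 := hopt.best _ hperm
  have h2 := pairSum_move (wt adj) A S B w
  rw [← hL] at h2
  linarith

/-- Splitting facts. -/
theorem split_facts (hnd : L.Nodup) {A S B : List V} {w : V} (hL : L = A ++ (S ++ w :: B)) :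
    S.Nodup ∧ ∀ s ∈ S, s ≠ w := by
  rw [hL] at hnd
  have h1 : (S ++ w :: B).Nodup := hnd.of_append_right
  refine ⟨h1.of_append_left, ?_⟩
  intro s hs
  have := List.nodup_append.mp h1
  exact this.2.2 s hs w List.mem_cons_self

/-- A vertex of a list ending in `f` placed before some `w` is not `f`. -/
theorem split_ne_f {P : List V} (hnd : L.Nodup) (hP : L = P ++ [f]) {A S B : List V} {w : V}
    (hL : L = A ++ (S ++ w :: B)) : ∀ s ∈ S, s ≠ f := by
  intro s hs hsf
  subst hsf
  rw [hP] at hnd
  have hmem : s ∈ P := by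
    have h1 : A ++ (S ++ w :: B) = P ++ [s] := by rw [← hL, hP]
    rcases List.eq_nil_or_concat B with rfl | ⟨B', b, rfl⟩
    · have h2 : (A ++ S) ++ [w] = P ++ [s] := by simpa using h1
      have h3 := List.append_inj' h2 rfl
      rw [← h3.1]
      simp [hs]
    · have h2 : (A ++ (S ++ w :: B')) ++ [b] = P ++ [s] := by simpa using h1
      have h3 := List.append_inj' h2 rfl
      rw [← h3.1]
      simp [hs]
  have := List.nodup_append.mp hnd
  exact this.2.2 s hmem s (by simp) rfl

theorem split_last {P : List V} (hP : L = P ++ [f]) {A S B : List V} {w : V}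
    (hL : L = A ++ (S ++ w :: B)) (hwf : w ≠ f) : ∃ P', A ++ w :: (S ++ B) = P' ++ [f] := by
  have h1 : A ++ (S ++ w :: B) = P ++ [f] := by rw [← hL, hP]
  rcases List.eq_nil_or_concat B with rfl | ⟨B', b, rfl⟩
  · have h2 : (A ++ S) ++ [w] = P ++ [f] := by simpa using h1
    have h3 := List.append_inj' h2 rfl
    simp only [List.cons.injEq, and_true] at h3
    exact absurd h3.2 hwf
  · have h2 : (A ++ (S ++ w :: B')) ++ [b] = P ++ [f] := by simpa using h1
    have h3 := List.append_inj' h2 rfl
    simp only [List.cons.injEq, and_true] at h3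
    refine ⟨A ++ w :: (S ++ B'), ?_⟩
    rw [h3.2]
    simp

/-- Case `w = f`. -/
theorem star_f (hor : IsOriented adj) (hsf : IsStarForest adj) (hopt : Opt adj L f)
    (hW : WitSpec adj f Wit) {A T B : List V} (hL : L = A ++ (T ++ f :: B))
    (hT : ∀ s ∈ T, ¬ Good adj f s) : 0 ≤ (T.map (PHI adj f Wit)).sum := by
  obtain ⟨hnd, hne⟩ := split_facts hopt.nodup hL
  have h0 := hopt.h0 hL
  have hR : 0 ≤ (T.map (rho adj f)).sum := by
    by_cases hc : IsCenter adj f
    · have h1 := center_bound hor hsf hnd hc h0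
      have h2 : 0 ≤ (T.map (fun s => inFake adj f s)).sum := by
        apply List.sum_nonneg
        intro x hx
        obtain ⟨s, -, rfl⟩ := List.mem_map.mp hx
        exact inFake_nonneg _ _
      linarith
    · exact noncenter_bound hor hnd hc h0
  have hle : (T.map (rho adj f)).sum ≤ (T.map (PHI adj f Wit)).sum := by
    apply List.sum_le_sum
    intro s hs
    by_cases h1 : adj f s
    · rw [phi_n1 hW h1, rho_of_out hor h1]
    · by_cases h2 : s ∈ Wit
      · rw [phi_wit hW h2, rho_of_missing (hW.miss s h2)]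
      · rw [phi_rest hW (hne s hs) h1 h2 (hT s hs)]
        exact rho_le_one _ _
  linarith

/-- Case of a centre. -/
theorem star_center (hor : IsOriented adj) (hsf : IsStarForest adj) (hopt : Opt adj L f)
    (hW : WitSpec adj f Wit) {A T B : List V} {w : V} (hL : L = A ++ (T ++ w :: B))
    (hw : Good adj f w) (hc : IsCenter adj w) (hT : ∀ s ∈ T, ¬ Good adj f s)
    (hnef : ∀ s ∈ T, s ≠ f) : 0 ≤ (T.map (PHI adj f Wit)).sum := by
  obtain ⟨hnd, hne⟩ := split_facts hopt.nodup hL
  have h1 := center_bound hor hsf hnd hc (hopt.h0 hL)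
  have hle : (T.map (fun s => rho adj w s - inFake adj w s)).sum ≤
      (T.map (PHI adj f Wit)).sum := by
    apply List.sum_le_sum
    intro s hs
    have hF := inFake_nonneg (adj := adj) w s
    by_cases h1 : adj f s
    · rw [phi_n1 hW h1]
      have hsw : ¬ adj s w := fun h => hw.1.2 (Or.inr ⟨s, h1, h⟩)
      by_cases hws : adj w s
      · rw [rho_of_out hor hws]
        linarith
      · have hm : Missing adj w s := ⟨(hne s hs).symm, hws, hsw⟩
        have hfake : Fake adj w s := by
          refine ⟨hm, hc, ?_, ?_⟩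
          · by_contra hadm
            exact hw.2 ⟨hw.1, s, h1, hm, hc, hadm⟩
          · intro hadm
            exact hw.1.2 (hadm f h1)
        rw [rho_of_missing hm]
        simp [inFake, hfake]
    · by_cases h2 : s ∈ Wit
      · rw [phi_wit hW h2]
        have := rho_nonpos (adj := adj) (w := w) (hW.noarc s h2 w hw)
        linarith
      · rw [phi_rest hW (hnef s hs) h1 h2 (hT s hs)]
        have := rho_le_one (adj := adj) w s
        linarith
  have hsub := sum_map_sub' (rho adj w) (fun s => inFake adj w s) T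
  linarith

/-- Case of a non-centre with a missing partner in `N1 f`. -/
theorem star_partner (hor : IsOriented adj) (hopt : Opt adj L f)
    (hW : WitSpec adj f Wit) {A T B : List V} {w : V} (hL : L = A ++ (T ++ w :: B))
    (hw : Good adj f w) (hc : ¬ IsCenter adj w) (hT : ∀ s ∈ T, ¬ Good adj f s)
    (hnef : ∀ s ∈ T, s ≠ f) {c : V} (hcT : c ∈ T) (hfc : adj f c) (hwc : Missing adj w c) :
    0 ≤ (T.map (PHI adj f Wit)).sum := by
  obtain ⟨hnd, hne⟩ := split_facts hopt.nodup hL
  have h0 := hopt.h0 hL
  have huniq : ∀ s, Missing adj w s → s = c := by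
    intro s hs
    by_contra hne'
    exact hc ⟨s, c, hne', hs, hwc⟩
  have hR0 := noncenter_bound hor hnd hc h0
  -- no weighted arc into or out of w
  have hK : (T.map (fun s => inFake adj s w)).sum = 0 := by
    have : (fun s => inFake adj s w) = fun _ => (0 : ℤ) := by
      funext s
      have : ¬ Fake adj s w := by
        intro h
        have hsc := huniq s (Missing.symm' h.1)
        subst hsc
        exact hw.1.2 (h.2.2.1 f hfc)
      simp [inFake, this]
    rw [this]
    simp
  have hM : (T.map (fun s => inFake adj w s)).sum = 0 := by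
    have : (fun s => inFake adj w s) = fun _ => (0 : ℤ) := by
      funext s
      have : ¬ Fake adj w s := fun h => hc h.2.1
      simp [inFake, this]
    rw [this]
    simp
  have hsum := sum_wt_eq hor T w
  rw [hK, hM] at hsum
  have hR1 : 1 ≤ (T.map (rho adj w)).sum := by
    by_contra hlt
    have hR : (T.map (rho adj w)).sum = 0 := by omega
    rw [hR] at hsum
    have hsum0 : (T.map (fun s => wt adj s w - wt adj w s)).sum = 0 := by
      rw [hsum]; ring
    obtain ⟨P, hP⟩ := hopt.last
    have hwf : w ≠ f := hw.1.1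
    obtain ⟨P', hP'⟩ := split_last hP hL hwf
    have hperm : (A ++ w :: (T ++ B)).Perm L := by
      rw [hL]
      exact (List.perm_middle.symm).append_left A
    have hmove := pairSum_move (wt adj) A T B w
    rw [← hL, hsum0] at hmove
    have h1 := hopt.tie _ P' hperm hP' (by linarith)
    have hmove2 := pairSum_move (pot adj f) A T B w
    rw [← hL] at hmove2
    have hd : ∀ s, 0 ≤ (fun s => pot adj f s w - pot adj f w s) s := by
      intro s
      have : pot adj f w s = 0 := by
        simp only [pot]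
        rw [if_neg]
        rintro ⟨-, h⟩
        exact h hw.1
      simp only [this, sub_zero]
      simp only [pot]
      split_ifs <;> simp
    have h2 := one_le_sum_of_mem _ hd T c hcT (by
      have h3 : pot adj f w c = 0 := by
        simp only [pot]
        rw [if_neg]
        rintro ⟨-, h⟩
        exact h hw.1
      have h4 : pot adj f c w = 1 := by
        simp only [pot]
        rw [if_pos]
        exact ⟨hw.1, fun h => h.2 (Or.inl hfc)⟩
      simp [h3, h4])
    linarith
  have hle : (T.map (rho adj w)).sum ≤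
      (T.map (fun s => PHI adj f Wit s + if s = c then 1 else 0)).sum := by
    apply List.sum_le_sum
    intro s hs
    have hind : (0 : ℤ) ≤ if s = c then 1 else 0 := by split_ifs <;> simp
    by_cases h1 : adj f s
    · rw [phi_n1 hW h1]
      have hsw : ¬ adj s w := fun h => hw.1.2 (Or.inr ⟨s, h1, h⟩)
      by_cases hws : adj w s
      · rw [rho_of_out hor hws]
        linarith
      · have hm : Missing adj w s := ⟨(hne s hs).symm, hws, hsw⟩
        rw [rho_of_missing hm, if_pos (huniq s hm)]
        simp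
    · by_cases h2 : s ∈ Wit
      · rw [phi_wit hW h2]
        have := rho_nonpos (adj := adj) (w := w) (hW.noarc s h2 w hw)
        linarith
      · rw [phi_rest hW (hnef s hs) h1 h2 (hT s hs)]
        have := rho_le_one (adj := adj) w s
        linarith
  have hadd := sum_map_add' (PHI adj f Wit) (fun s => if s = c then (1 : ℤ) else 0) T
  have hone := sum_map_le_one (fun s => if s = c then (1 : ℤ) else 0) (fun s => s = c)
    (by rintro a b rfl rfl; rfl) (fun s => le_refl _) T hnd
  have hone' : (T.map (fun s => if s = c then (1 : ℤ) else 0)).sum ≤ 1 := by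
    refine hone.trans ?_
    split_ifs <;> simp
  linarith

/-- Case of a non-centre with no missing partner in `N1 f`. -/
theorem star_nopartner (hor : IsOriented adj) (hopt : Opt adj L f)
    (hW : WitSpec adj f Wit) {A T B : List V} {w : V} (hL : L = A ++ (T ++ w :: B))
    (hw : Good adj f w) (hc : ¬ IsCenter adj w) (hT : ∀ s ∈ T, ¬ Good adj f s)
    (hnef : ∀ s ∈ T, s ≠ f) (hno : ∀ c ∈ T, adj f c → ¬ Missing adj w c) :
    0 ≤ (T.map (PHI adj f Wit)).sum := by
  obtain ⟨hnd, hne⟩ := split_facts hopt.nodup hL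
  have hR0 := noncenter_bound hor hnd hc (hopt.h0 hL)
  have hle : (T.map (rho adj w)).sum ≤ (T.map (PHI adj f Wit)).sum := by
    apply List.sum_le_sum
    intro s hs
    by_cases h1 : adj f s
    · rw [phi_n1 hW h1]
      have hsw : ¬ adj s w := fun h => hw.1.2 (Or.inr ⟨s, h1, h⟩)
      by_cases hws : adj w s
      · rw [rho_of_out hor hws]
      · exact absurd ⟨(hne s hs).symm, hws, hsw⟩ (hno s hs h1)
    · by_cases h2 : s ∈ Wit
      · rw [phi_wit hW h2]
        exact rho_nonpos (hW.noarc s h2 w hw)
      · rw [phi_rest hW (hnef s hs) h1 h2 (hT s hs)]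
        exact rho_le_one _ _
  linarith

/-- All cases together. -/
theorem star (hor : IsOriented adj) (hsf : IsStarForest adj) (hopt : Opt adj L f)
    (hW : WitSpec adj f Wit) {A T B : List V} {w : V} (hL : L = A ++ (T ++ w :: B))
    (hw : w = f ∨ Good adj f w) (hT : ∀ s ∈ T, ¬ Good adj f s) :
    0 ≤ (T.map (PHI adj f Wit)).sum := by
  rcases hw with rfl | hw
  · exact star_f hor hsf hopt hW hL hT
  · obtain ⟨P, hP⟩ := hopt.last
    have hnef := split_ne_f hopt.nodup hP hL
    by_cases hc : IsCenter adj w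
    · exact star_center hor hsf hopt hW hL hw hc hT hnef
    · by_cases hex : ∃ c ∈ T, adj f c ∧ Missing adj w c
      · obtain ⟨c, hcT, hfc, hwc⟩ := hex
        exact star_partner hor hopt hW hL hw hc hT hnef hcT hfc hwc
      · push Not at hex
        exact star_nopartner hor hopt hW hL hw hc hT hnef hex

/-- Induction over the good vertices. -/
theorem sum_phi_nonneg (hor : IsOriented adj) (hsf : IsStarForest adj) (hopt : Opt adj L f)
    (hW : WitSpec adj f Wit) : ∀ (n : ℕ) (A T B : List V) (w : V), T.length = n →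
      L = A ++ (T ++ w :: B) → (w = f ∨ Good adj f w) →
      0 ≤ (T.map (PHI adj f Wit)).sum := by
  intro n
  induction n using Nat.strong_induction_on with
  | _ n ih =>
    intro A T B w hn hL hw
    by_cases hex : ∃ u ∈ T, Good adj f u
    · obtain ⟨u, huT, hu⟩ := hex
      obtain ⟨T1, T2, rfl⟩ := List.append_of_mem huT
      have hlen : T1.length + T2.length + 1 = n := by
        rw [← hn]
        simp
        omega
      have h1 := ih T1.length (by omega) A T1 (T2 ++ w :: B) u rfl (by rw [hL]; simp) (Or.inr hu)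
      have h2 := ih T2.length (by omega) (A ++ T1 ++ [u]) T2 B w rfl (by rw [hL]; simp) hw
      simp only [List.map_append, List.map_cons, List.sum_append, List.sum_cons]
      rw [phi_good hW hu]
      linarith
    · push Not at hex
      exact star hor hsf hopt hW hL hw hex

end Star

/-- Existence of the optimal list. -/
theorem exists_opt [Fintype V] [Nonempty V] (adj : V → V → Prop) :
    ∃ (L : List V) (f : V), L.Perm (Finset.univ.toList) ∧ Opt adj L f := by
  classical
  set l : List V := Finset.univ.toList with hl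
  have hlnd : l.Nodup := Finset.nodup_toList _
  set C : Finset (List V) := l.permutations.toFinset with hC
  have hmem : ∀ x, x ∈ C ↔ x.Perm l := by
    intro x
    rw [hC, List.mem_toFinset, List.mem_permutations]
  obtain ⟨L0, hL0, hL0max⟩ := Finset.exists_max_image C (pairSum (wt adj)) ⟨l, (hmem l).mpr (List.Perm.refl _)⟩
  have hL0p := (hmem L0).mp hL0
  have hne : L0 ≠ [] := by
    intro h
    rw [h] at hL0p
    obtain ⟨v⟩ := ‹Nonempty V›
    have hv : v ∈ l := by simp [hl]
    have := hL0p.mem_iff.mpr hv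
    simp at this
  obtain ⟨P0, f, hP0⟩ : ∃ P0 f, L0 = P0 ++ [f] := by
    rcases List.eq_nil_or_concat L0 with h | ⟨P0, f, h⟩
    · exact absurd h hne
    · exact ⟨P0, f, by simpa using h⟩
  set D : Finset (List V) := C.filter (fun x => pairSum (wt adj) x = pairSum (wt adj) L0 ∧ ∃ P, x = P ++ [f]) with hD
  obtain ⟨L, hL, hLmin⟩ := Finset.exists_min_image D (pairSum (pot adj f)) ⟨L0, by
    rw [hD, Finset.mem_filter]
    exact ⟨hL0, rfl, P0, hP0⟩⟩
  rw [hD, Finset.mem_filter] at hL
  obtain ⟨hLC, hLs, hLlast⟩ := hL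
  have hLp := (hmem L).mp hLC
  refine ⟨L, f, hLp, hLp.nodup_iff.mpr hlnd, hLlast, ?_, ?_⟩
  · intro L' hL'
    rw [hLs]
    exact hL0max L' ((hmem L').mpr (hL'.trans hLp))
  · intro L' P' hL' hP' hs
    apply hLmin
    rw [hD, Finset.mem_filter]
    exact ⟨(hmem L').mpr (hL'.trans hLp), by rw [hs, hLs], P', hP'⟩

/-- The main theorem. -/
theorem exists_good_vertex [Fintype V] [Nonempty V] (hor : IsOriented adj)
    (hsf : IsStarForest adj) : ∃ v, (N1 adj v).card ≤ (N2 adj v).card := by
  obtain ⟨L, f, hLp, hopt⟩ := exists_opt adj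
  obtain ⟨Wit, hcard, hW⟩ := exists_witness hor hsf f
  refine ⟨f, ?_⟩
  obtain ⟨P, hP⟩ := hopt.last
  have h1 := sum_phi_nonneg hor hsf hopt hW P.length [] P [] f rfl (by simpa using hP) (Or.inl rfl)
  have h2 : (L.map (PHI adj f Wit)).sum = (P.map (PHI adj f Wit)).sum := by
    rw [hP]
    simp [phi_f hor hW]
  have h3 : (L.map (PHI adj f Wit)).sum = ∑ s, PHI adj f Wit s := by
    rw [(hLp.map _).sum_eq, Finset.sum_map_toList]
  have h4 : ∑ s, PHI adj f Wit s =
      ((N2 adj f).card : ℤ) - Wit.card + (Finset.univ.filter (IsBad adj f)).card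
        - (N1 adj f).card := by
    simp only [PHI, Finset.sum_sub_distrib, Finset.sum_add_distrib, Finset.sum_boole,
      Finset.filter_mem_eq_inter, Finset.univ_inter]
  rw [← hcard] at h4
  have h5 : (0 : ℤ) ≤ ((N2 adj f).card : ℤ) - (N1 adj f).card := by
    have : (0 : ℤ) ≤ ∑ s, PHI adj f Wit s := by
      rw [← h3, h2]
      exact h1
    rw [h4] at this
    linarith
  have h6 : ((N1 adj f).card : ℤ) ≤ (N2 adj f).card := by linarith
  exact_mod_cast h6

end Vale.Agent.Lib.P038
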