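import Vale.Agent.Lib.P038.Defs
import Vale.Agent.Lib.P038.Kemperman

/-!
Seymour's second neighbourhood inequality for vertex-transitive oriented graphs, deduced from
Kemperman's theorem on products of finite subsets of a group. The group is the automorphism
group of the digraph, with the sets pulled back from the vertex set along the orbit map.
-/

namespace Vale.Agent.Lib.P038

open Classical Finset Pointwise

section VT

variable {V : Type*} [Fintype V]

/-- The automorphism group of a relation on `V`, as a subgroup of the permutations of `V`. -/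
def autG (adj : V → V → Prop) : Subgroup (Equiv.Perm V) where
  carrier := {φ | ∀ x y, adj x y ↔ adj (φ x) (φ y)}
  mul_mem' := by
    intro a b ha hb x y
    rw [hb x y, ha (b x) (b y)]
    rfl
  one_mem' := by
    intro x y
    rfl
  inv_mem' := by
    intro a ha x y
    have := ha (a⁻¹ x) (a⁻¹ y)
    simpa using this.symm

noncomputable instance (adj : V → V → Prop) : Fintype (autG adj) := Fintype.ofFinite _

variable {adj : V → V → Prop}

/-- Vertex transitivity: every vertex can be moved to every vertex by an automorphism. -/
private theorem card_fiber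
    (htrans : ∀ u v, ∃ φ : Equiv.Perm V, (∀ x y, adj x y ↔ adj (φ x) (φ y)) ∧ φ u = v)
    (v w : V) :
    (univ.filter (fun g : autG adj => (g : Equiv.Perm V) v = w)).card =
      (univ.filter (fun g : autG adj => (g : Equiv.Perm V) v = v)).card := by
  obtain ⟨φ, hφ, hvw⟩ := htrans v w
  let g0 : autG adj := ⟨φ, hφ⟩
  have hg0 : (g0 : Equiv.Perm V) v = w := hvw
  symm
  apply Finset.card_bij (fun g _ => g0 * g)
  · intro g hg
    simp only [mem_filter, mem_univ, true_and] at hg ⊢
    simp only [Subgroup.coe_mul, Equiv.Perm.coe_mul, Function.comp_apply, hg, hg0]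
  · intro a _ b _ h
    exact mul_left_cancel h
  · intro b hb
    simp only [mem_filter, mem_univ, true_and] at hb
    refine ⟨g0⁻¹ * b, ?_, by simp⟩
    simp only [mem_filter, mem_univ, true_and]
    simp only [Subgroup.coe_mul, Subgroup.coe_inv, Equiv.Perm.coe_mul, Function.comp_apply, hb]
    rw [← hg0]
    simp

/-- The preimage of a vertex set under the orbit map has size `|stabiliser| * |W|`. -/
private theorem card_pull
    (htrans : ∀ u v, ∃ φ : Equiv.Perm V, (∀ x y, adj x y ↔ adj (φ x) (φ y)) ∧ φ u = v)
    (v : V) (W : Finset V) :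
    (univ.filter (fun g : autG adj => (g : Equiv.Perm V) v ∈ W)).card =
      (univ.filter (fun g : autG adj => (g : Equiv.Perm V) v = v)).card * W.card := by
  have hmaps : ∀ g ∈ univ.filter (fun g : autG adj => (g : Equiv.Perm V) v ∈ W),
      (g : Equiv.Perm V) v ∈ W := by
    intro g hg
    simpa using hg
  rw [Finset.card_eq_sum_card_fiberwise hmaps]
  have : ∀ w ∈ W, ((univ.filter (fun g : autG adj => (g : Equiv.Perm V) v ∈ W)).filter
      (fun g : autG adj => (g : Equiv.Perm V) v = w)).card =
      (univ.filter (fun g : autG adj => (g : Equiv.Perm V) v = v)).card := by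
    intro w hw
    rw [← card_fiber htrans v w]
    congr 1
    ext g
    simp only [mem_filter, mem_univ, true_and]
    constructor
    · exact fun h => h.2
    · intro h
      exact ⟨h ▸ hw, h⟩
  rw [Finset.sum_congr rfl this]
  simp [mul_comm]

/-- **Vertex-transitive oriented graphs satisfy the second neighbourhood inequality at every
vertex.** -/
theorem vertexTransitive_snc (hor : IsOriented adj)
    (htrans : ∀ u v, ∃ φ : Equiv.Perm V, (∀ x y, adj x y ↔ adj (φ x) (φ y)) ∧ φ u = v) (v : V) :
    (N1 adj v).card ≤ (N2 adj v).card := by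
  classical
  set P : Finset V → Finset (autG adj) :=
    fun W => univ.filter (fun g : autG adj => (g : Equiv.Perm V) v ∈ W) with hP
  set H : Finset (autG adj) := univ.filter (fun g : autG adj => (g : Equiv.Perm V) v = v) with hH
  have hcard : ∀ W, (P W).card = H.card * W.card := fun W => card_pull htrans v W
  set A := P (insert v (N1 adj v)) with hA
  set C : Finset (autG adj) := A⁻¹ with hC
  set D := P (insert v (N1 adj v ∪ N2 adj v)) with hD
  have hadj : ∀ (g : autG adj) x y, adj x y ↔ adj ((g : Equiv.Perm V) x) ((g : Equiv.Perm V) y) :=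
    fun g x y => g.2 x y
  have hN1 : ∀ x, x ∈ N1 adj v ↔ adj v x := by
    intro x
    simp [N1]
  have hN2 : ∀ x, x ∈ N2 adj v ↔ (x ≠ v ∧ ¬ adj v x ∧ ∃ u, adj v u ∧ adj u x) := by
    intro x
    simp [N2]
  have hmemA : ∀ g : autG adj, g ∈ A ↔ ((g : Equiv.Perm V) v = v ∨ adj v ((g : Equiv.Perm V) v)) := by
    intro g
    simp [hA, hP, hN1]
  have h1A : (1 : autG adj) ∈ A := by
    rw [hmemA]
    left
    rfl
  have h1C : (1 : autG adj) ∈ C := by
    rw [hC, Finset.mem_inv']
    simpa using h1A
  have hprod : ∀ a ∈ A, ∀ c ∈ C, a * c⁻¹ ∈ D := by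
    intro a ha c hc
    rw [hC, Finset.mem_inv'] at hc
    rw [hmemA] at ha hc
    have hmemD : a * c⁻¹ ∈ D ↔ ((a * c⁻¹ : autG adj) : Equiv.Perm V) v ∈
        insert v (N1 adj v ∪ N2 adj v) := by
      simp [hD, hP]
    rw [hmemD]
    set b := c⁻¹ with hb
    have hab : ((a * b : autG adj) : Equiv.Perm V) v =
        (a : Equiv.Perm V) ((b : Equiv.Perm V) v) := rfl
    rw [hab]
    rcases hc with hc | hc
    · -- `b` fixes `v`
      rw [hc]
      rcases ha with ha | ha
      · rw [ha]
        exact mem_insert_self _ _
      · exact mem_insert_of_mem (mem_union_left _ ((hN1 _).2 ha))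
    · rcases ha with ha | ha
      · -- `a` fixes `v`
        have h := (hadj a v _).1 hc
        rw [ha] at h
        exact mem_insert_of_mem (mem_union_left _ ((hN1 _).2 h))
      · -- two steps
        have h := (hadj a v _).1 hc
        by_cases hne : (a : Equiv.Perm V) ((b : Equiv.Perm V) v) = v
        · rw [hne] at h
          exact absurd ha (hor.2 _ _ h)
        by_cases hv : adj v ((a : Equiv.Perm V) ((b : Equiv.Perm V) v))
        · exact mem_insert_of_mem (mem_union_left _ ((hN1 _).2 hv))
        · exact mem_insert_of_mem (mem_union_right _ ((hN2 _).2 ⟨hne, hv, _, ha, h⟩))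
  have hkem : (A ∪ C).card ≤ D.card := by
    refine le_trans (Finset.card_le_card ?_) (kemperman h1A h1C hprod)
    intro g hg
    exact (@Finset.mem_union _ (fun a b => propDecidable (a = b)) _ _ _).2 (Finset.mem_union.1 hg)
  have hinter : (A ∩ C).card ≤ H.card := by
    apply Finset.card_le_card
    intro g hg
    rw [mem_inter, hC, Finset.mem_inv', hmemA, hmemA] at hg
    rw [hH, mem_filter]
    refine ⟨mem_univ _, ?_⟩
    obtain ⟨h1, h2⟩ := hg
    rcases h1 with h1 | h1
    · exact h1
    · rcases h2 with h2 | h2
      · -- `g⁻¹ v = v`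
        have : (g : Equiv.Perm V) (((g⁻¹ : autG adj) : Equiv.Perm V) v) = v := by
          simp
        rw [h2] at this
        exact this
      · have h := (hadj g v _).1 h2
        have h' : (g : Equiv.Perm V) (((g⁻¹ : autG adj) : Equiv.Perm V) v) = v := by
          simp
        rw [h'] at h
        exact absurd h (hor.2 _ _ h1)
  have hCcard : C.card = A.card := Finset.card_inv _
  have hun := Finset.card_union_add_card_inter A C
  have hAcard : A.card = H.card * (N1 adj v).card + H.card := by
    rw [hA, hcard, Finset.card_insert_of_notMem]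
    · ring
    · intro h
      exact hor.1 v ((hN1 v).1 h)
  have hDcard : D.card = H.card * ((N1 adj v).card + (N2 adj v).card) + H.card := by
    have hdisj : Disjoint (N1 adj v) (N2 adj v) := by
      rw [Finset.disjoint_left]
      intro x h1 h2
      exact ((hN2 x).1 h2).2.1 ((hN1 x).1 h1)
    rw [hD, hcard, Finset.card_insert_of_notMem, Finset.card_union_of_disjoint hdisj]
    · ring
    · intro h
      rcases mem_union.1 h with h | h
      · exact hor.1 v ((hN1 v).1 h)
      · exact ((hN2 v).1 h).1 rfl
  have hHpos : 0 < H.card := by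
    apply Finset.card_pos.2
    exact ⟨1, by simp [hH]⟩
  have key : H.card * (N1 adj v).card ≤ H.card * (N2 adj v).card := by
    have e1 := hCcard
    nlinarith
  exact Nat.le_of_mul_le_mul_left key hHpos

end VT

end Vale.Agent.Lib.P038
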